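import Vale.Agent.P223.H209.G1
import Vale.Agent.P223.H209.G3
import Vale.Agent.P223.R2.H84.Spec

/-! P223, modifications of minimal Kaehler manifolds, block B1: the area formula (upper bound)
for a holomorphic map, with a measurable weight. -/

open scoped ContDiff Manifold Matrix Topology ENNReal
open MeasureTheory

namespace Vale.Agent.P223.R2.H187

open Vale.Agent.P223.H209

section area

variable {n : ℕ} {J : Matrix (Fin n) (Fin n) ℝ} {M N : Type}
  [TopologicalSpace M] [ChartedSpace (Fin n → ℝ) M] [MeasurableSpace M] [BorelSpace M]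
  [IsManifold 𝓘(ℝ, Fin n → ℝ) ∞ M] [CompactSpace M] [T2Space M]
  [TopologicalSpace N] [ChartedSpace (Fin n → ℝ) N] [MeasurableSpace N] [BorelSpace N]
  [IsManifold 𝓘(ℝ, Fin n → ℝ) ∞ N] [CompactSpace N] [T2Space N] {f : M → N}
  {g : RMetric (Fin n) M} {μ : Measure M} {g0 : RMetric (Fin n) N} {μ0 : Measure N}

/-- change of variables on a small set, with a weight -/
theorem local_weight (hJ : J * J = -1) (hμ : IsVol g μ) (hμ0 : IsVol g0 μ0) (hf : HoloMap J f)
    {e : OpenPartialHomeomorph M (Fin n → ℝ)} (he : e ∈ atlas (Fin n → ℝ) M)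
    {e' : OpenPartialHomeomorph N (Fin n → ℝ)} (he' : e' ∈ atlas (Fin n → ℝ) N)
    {A : Set M} (hA : MeasurableSet A) (hAe : A ⊆ e.source) (hAe' : A ⊆ f ⁻¹' e'.source)
    (hinj : Set.InjOn f A) {h : N → ℝ≥0∞} (hh : Measurable h) :
    ∫⁻ p in A, h (f p) * ENNReal.ofReal (relJac g g0 f p) ∂μ = ∫⁻ y in f '' A, h y ∂μ0 := by
  have hqm : Measurable fun p => ENNReal.ofReal (relJac g g0 f p) :=
    (relJac_continuous hJ hf g g0).measurable.ennreal_ofReal
  have hfm : Measurable f := hf.cont.measurable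
  have hfA : MeasurableSet (f '' A) := image_meas hf he he' hA hAe hAe' hinj
  have h1 : Measure.map f ((μ.restrict A).withDensity fun p =>
      ENNReal.ofReal (relJac g g0 f p)) = μ0.restrict (f '' A) := by
    ext B hB
    have hAB : MeasurableSet (f ⁻¹' B ∩ A) := (hfm hB).inter hA
    have h2 : Set.InjOn f (f ⁻¹' B ∩ A) := hinj.mono Set.inter_subset_right
    rw [Measure.map_apply hfm hB, withDensity_apply _ (hfm hB), Measure.restrict_restrict (hfm hB),
      Measure.restrict_apply hB,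
      cover_local hJ hμ hμ0 hf he he' hAB (Set.inter_subset_right.trans hAe)
        (Set.inter_subset_right.trans hAe') h2
        (image_meas hf he he' hAB (Set.inter_subset_right.trans hAe)
          (Set.inter_subset_right.trans hAe') h2)]
    congr 1
    ext y
    constructor
    · rintro ⟨p, hp, rfl⟩
      exact ⟨hp.1, p, hp.2, rfl⟩
    · rintro ⟨hy, p, hp, rfl⟩
      exact ⟨p, ⟨hy, hp⟩, rfl⟩
  have h2 := lintegral_withDensity_eq_lintegral_mul (μ.restrict A) hqm (hh.comp hfm)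
  simp only [Pi.mul_apply, Function.comp_apply] at h2
  rw [← h1, lintegral_map hh hfm, h2]
  exact lintegral_congr fun p => mul_comm _ _

/-- The area formula, upper bound. -/
theorem area_le (hJ : J * J = -1) (hμ : IsVol g μ) (hμ0 : IsVol g0 μ0) (hf : HoloMap J f) (d : ℕ)
    (hd : ∀ y : N, (∀ p, f p = y → relJac g g0 f p ≠ 0) → (f ⁻¹' {y}).encard ≤ (d : ℕ∞))
    {h : N → ℝ≥0∞} (hh : Measurable h) :
    ∫⁻ p, h (f p) * ENNReal.ofReal (relJac g g0 f p) ∂μ ≤ d * ∫⁻ y, h y ∂μ0 := by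
  classical
  have : SecondCountableTopology M :=
    ChartedSpace.secondCountable_of_sigmaCompact (Fin n → ℝ) M
  have hq := relJac_continuous hJ hf g g0
  set C : Set M := {p | relJac g g0 f p = 0} with hC
  have hCc : IsClosed C := isClosed_eq hq continuous_const
  set R : Set M := Cᶜ with hR
  have hRo : IsOpen R := hCc.isOpen_compl
  have hfC : μ0 (f '' C) = 0 := sard hμ0 hf g
  -- the integral over the regular points
  have h0 : ∫⁻ p, h (f p) * ENNReal.ofReal (relJac g g0 f p) ∂μ =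
      ∫⁻ p in R, h (f p) * ENNReal.ofReal (relJac g g0 f p) ∂μ := by
    rw [← lintegral_indicator hRo.measurableSet]
    refine lintegral_congr fun p => ?_
    by_cases hp : p ∈ R
    · rw [Set.indicator_of_mem hp]
    · rw [Set.indicator_of_notMem hp]
      have h1 : relJac g g0 f p = 0 := by
        by_contra h2
        exact hp h2
      rw [h1, ENNReal.ofReal_zero, mul_zero]
  rw [h0]
  -- small open neighbourhoods
  have hV : ∀ p : M, ∃ V : Set M, p ∈ R → IsOpen V ∧ p ∈ V ∧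
      V ⊆ (chartAt (Fin n → ℝ) p).source ∧
      V ⊆ f ⁻¹' (chartAt (Fin n → ℝ) (f p)).source ∧ Set.InjOn f V ∧ V ⊆ R := by
    intro p
    by_cases hp : p ∈ R
    · obtain ⟨V, h1, h2, h3, h4, h5⟩ := exists_nhds hf g g0 (p := p) hp
      exact ⟨V ∩ R, fun _ => ⟨h1.inter hRo, ⟨h2, hp⟩, fun q hq => h3 hq.1, fun q hq => h4 hq.1,
        h5.mono Set.inter_subset_left, Set.inter_subset_right⟩⟩
    · exact ⟨∅, fun h => absurd h hp⟩
  choose V hV using hV
  obtain ⟨s, hsR, hsc, hs⟩ := TopologicalSpace.countable_cover_nhdsWithin (s := R) (f := V)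
    fun p hp => mem_nhdsWithin_of_mem_nhds ((hV p hp).1.mem_nhds (hV p hp).2.1)
  rcases s.eq_empty_or_nonempty with hse | hsne
  · -- no regular points
    have hR0 : R = ∅ := by
      rw [hse] at hs
      simpa using hs
    rw [hR0, Measure.restrict_empty, lintegral_zero_measure]
    exact zero_le
  obtain ⟨a, ha⟩ := hsc.exists_eq_range hsne
  have haR : ∀ k, a k ∈ R := fun k => hsR (by rw [ha]; exact ⟨k, rfl⟩)
  set W : ℕ → Set M := fun k => V (a k) with hW
  set A : ℕ → Set M := disjointed W with hAd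
  have hWo : ∀ k, IsOpen (W k) := fun k => (hV _ (haR k)).1
  have hAm : ∀ k, MeasurableSet (A k) := fun k =>
    MeasurableSet.disjointed (fun k => (hWo k).measurableSet) k
  have hAW : ∀ k, A k ⊆ W k := fun k => disjointed_subset W k
  have hAu : ⋃ k, A k = R := by
    rw [hAd, iUnion_disjointed]
    apply Set.Subset.antisymm
    · exact Set.iUnion_subset fun k => (hV _ (haR k)).2.2.2.2.2
    · rw [ha, Set.biUnion_range] at hs
      exact hs
  have hAdj : Pairwise (Function.onFun Disjoint A) := disjoint_disjointed W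
  have hAinj : ∀ k, Set.InjOn f (A k) := fun k => (hV _ (haR k)).2.2.2.2.1.mono (hAW k)
  have hfA : ∀ k, MeasurableSet (f '' A k) := fun k =>
    image_meas hf (chart_mem_atlas _ (a k)) (chart_mem_atlas _ (f (a k))) (hAm k)
      ((hAW k).trans (hV _ (haR k)).2.2.1) ((hAW k).trans (hV _ (haR k)).2.2.2.1) (hAinj k)
  have hloc2 : ∀ k, ∫⁻ p in A k, h (f p) * ENNReal.ofReal (relJac g g0 f p) ∂μ =
      ∫⁻ y in f '' A k, h y ∂μ0 := fun k =>
    local_weight hJ hμ hμ0 hf (chart_mem_atlas _ (a k)) (chart_mem_atlas _ (f (a k))) (hAm k)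
      ((hAW k).trans (hV _ (haR k)).2.2.1) ((hAW k).trans (hV _ (haR k)).2.2.2.1) (hAinj k) hh
  rw [← hAu, lintegral_iUnion hAm hAdj]
  simp only [hloc2]
  have h3 : ∀ k, ∫⁻ y in f '' A k, h y ∂μ0 = ∫⁻ y, (f '' A k).indicator h y ∂μ0 := fun k => by
    rw [lintegral_indicator (hfA k)]
  simp only [h3]
  rw [← lintegral_tsum fun k => (hh.indicator (hfA k)).aemeasurable,
    ← lintegral_const_mul _ hh]
  refine lintegral_mono_ae ?_
  have h5 : ∀ᵐ y ∂μ0, y ∉ f '' C := measure_eq_zero_iff_ae_notMem.1 hfC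
  filter_upwards [h5] with y hy
  set S : Set ℕ := {k | y ∈ f '' A k} with hS
  have e1 : ∀ k, (f '' A k).indicator h y = S.indicator (fun _ => h y) k := by
    intro k
    by_cases hk : y ∈ f '' A k
    · rw [Set.indicator_of_mem hk, Set.indicator_of_mem (show k ∈ S from hk)]
    · rw [Set.indicator_of_notMem hk, Set.indicator_of_notMem (show k ∉ S from hk)]
  simp only [e1]
  rw [← _root_.tsum_subtype, ENNReal.tsum_set_const]
  have hyR : ∀ p, f p = y → relJac g g0 f p ≠ 0 := fun p hp hpC => hy ⟨p, hpC, hp⟩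
  have e2 : S.encard ≤ (f ⁻¹' {y}).encard := by
    have hk : ∀ k : ℕ, ∃ p, k ∈ S → p ∈ A k ∧ f p = y := fun k => by
      by_cases hk : k ∈ S
      · obtain ⟨p, hp, hpy⟩ := hk
        exact ⟨p, fun _ => ⟨hp, hpy⟩⟩
      · exact ⟨a 0, fun h => absurd h hk⟩
    choose κ hκ using hk
    have hinj : Set.InjOn κ S := by
      intro k hk l hl hkl
      by_contra hne
      have h6 := Set.disjoint_left.1 (hAdj hne) (hκ k hk).1
      rw [hkl] at h6
      exact h6 (hκ l hl).1
    have himg : κ '' S ⊆ f ⁻¹' {y} := by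
      rintro _ ⟨k, hk, rfl⟩
      exact (hκ k hk).2
    rw [← hinj.encard_image]
    exact Set.encard_le_encard himg
  have e3 : S.encard ≤ (d : ℕ∞) := e2.trans (hd y hyR)
  refine mul_le_mul_left ?_ _
  calc ((S.encard : ℕ∞) : ℝ≥0∞) ≤ (((d : ℕ∞)) : ℝ≥0∞) := by exact_mod_cast e3
    _ = (d : ℝ≥0∞) := by simp

end area

/-- BLOCK B1 -/
theorem main : H84.SpecAreaLe := by
  intro n A X Y _ _ _ _ _ _ _ _ _ _ c c' f d g g0 μ μ0 hA hc hc' hg hg0 hμ hμ0 hf hd
  let i1 := toCS hc
  let i2 := toCS hc'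
  have := isManifold_of_atl hc
  have := isManifold_of_atl hc'
  have hsm : ∀ a b x, x ∈ (c' a).target → f ((c' a).symm x) ∈ (c b).source →
      (∀ i, DifferentiableAt ℝ (fun z => cmap f (c' a) (c b) z i) x) ∧
      ContDiffAt ℝ ∞ (cmap f (c' a) (c b)) x ∧
      jac (cmap f (c' a) (c b)) x * A = A * jac (cmap f (c' a) (c b)) x := by
    intro a b x hx hfx
    obtain ⟨h1, h2⟩ := hf.2 a b _ x _ (Kat_symm hx) (Kat_coe hfx)
    have h3 : ContDiffAt ℝ ∞ (cmap f (c' a) (c b)) x := contDiffAt_pi.2 h1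
    have h4 : ∀ i, DifferentiableAt ℝ (fun z => cmap f (c' a) (c b) z i) x := fun i =>
      ContDiffAt.differentiableAt (h1 i) (by simp)
    have h5 : K.jac (fun z => c b (f ((c' a).symm z))) x = jac (cmap f (c' a) (c b)) x :=
      Kjac_eq h4
    rw [h5] at h2
    exact ⟨h4, h3, h2⟩
  have hHM : HoloMap A f := by
    refine ⟨hf.1, ?_, ?_⟩
    · rintro _ ⟨a, rfl⟩ _ ⟨b, rfl⟩ x hx hfx
      exact (hsm a b x hx hfx).2.1
    · rintro _ ⟨a, rfl⟩ _ ⟨b, rfl⟩ x hx hfx
      exact (hsm a b x hx hfx).2.2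
  have hdeg : ∀ y : X, (∀ p, f p = y → relJac (toRM hc' hg) (toRM hc hg0) f p ≠ 0) →
      (f ⁻¹' {y}).encard ≤ (d : ℕ∞) := by
    intro y hy
    refine (hd y fun a b p x y' hp hx hy' => ?_).le
    have h1 := hy p hp
    have hpa : p ∈ (c' a).source := hx.1
    have he : c' a ∈ atlas (Fin n → ℝ) Y := ⟨a, rfl⟩
    have he' : c b ∈ atlas (Fin n → ℝ) X := ⟨b, rfl⟩
    rw [relJac_eq hHM _ _ he hpa, hx.2] at h1
    have hxt : x ∈ (c' a).target := by rw [← hx.2]; exact (c' a).map_source hpa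
    have hsx : (c' a).symm x = p := by rw [← hx.2, (c' a).left_inv hpa]
    have hfx : f ((c' a).symm x) ∈ (c b).source := by rw [hsx, hp]; exact hy'.1
    have h2 : pden (toRM hc hg0) f (c' a) x ≠ 0 := fun h => h1 (by rw [h, zero_div])
    rw [pden_eq hHM _ he he' hxt hfx] at h2
    have h3 := abs_ne_zero.1 (right_ne_zero_of_mul h2)
    have h5 : K.jac (fun z => c b (f ((c' a).symm z))) x = jac (cmap f (c' a) (c b)) x :=
      Kjac_eq (hsm a b x hxt hfx).1
    rw [h5]
    exact h3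
  refine ⟨relJac (toRM hc' hg) (toRM hc hg0) f, relJac_continuous hA hHM _ _,
    relJac_nonneg hHM _ _, fun h hh => ?_, fun a b x hx hfx => ?_⟩
  · exact area_le hA (toRM_vol hc' hg hμ) (toRM_vol hc hg0 hμ0) hHM d hdeg hh
  · have he : c' a ∈ atlas (Fin n → ℝ) Y := ⟨a, rfl⟩
    have he' : c b ∈ atlas (Fin n → ℝ) X := ⟨b, rfl⟩
    have hp : (c' a).symm x ∈ (c' a).source := (c' a).map_target hx
    have hd0 : 0 < dens ((toRM hc' hg).mat (c' a)) x := ((toRM hc' hg).isMetric _ he).dens_pos hx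
    rw [relJac_eq hHM _ _ he hp, (c' a).right_inv hx]
    have h1 : √(g a x).det = dens ((toRM hc' hg).mat (c' a)) x := by
      show √(g a x).det = √(toMat c' g (c' a) x).det
      rw [toMat_eq hg a hx]
    have h2 : √(g0 b (c b (f ((c' a).symm x)))).det =
        dens ((toRM hc hg0).mat (c b)) (cmap f (c' a) (c b) x) := by
      show √(g0 b (c b (f ((c' a).symm x)))).det =
        √(toMat c g0 (c b) (c b (f ((c' a).symm x)))).det
      rw [toMat_eq hg0 b ((c b).map_source hfx)]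
    have h3 : (fderiv ℝ (fun z => c b (f ((c' a).symm z))) x).det =
        (jac (cmap f (c' a) (c b)) x).det := fderiv_det (hsm a b x hx hfx).2.1
    rw [h1, h2, h3, div_mul_cancel₀ _ hd0.ne', pden_eq hHM _ he he' hx hfx]

end Vale.Agent.P223.R2.H187
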