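import Vale.Agent.P223.R2.H187.AreaLe
import Vale.Agent.P223.R2.H84.SpecDeg
import Vale.Agent.P223.H959.F2

/-! P223, modifications, rows D5 and D5a: the curvature inequality for a holomorphic map, without
the number of preimages, and the relative Jacobian determinant. -/

open scoped ContDiff Manifold Matrix Topology ENNReal
open Finset MeasureTheory

namespace Vale.Agent.P223.R2.H187

open Vale.Agent.P223.H209 Vale.Agent.P223.H959

section

variable {n : ℕ} {M' : Type} [TopologicalSpace M'] [ChartedSpace (Fin n → ℝ) M']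
  [MeasurableSpace M'] [BorelSpace M'] [IsManifold 𝓘(ℝ, Fin n → ℝ) ∞ M'] [CompactSpace M']
  [T2Space M']
  {M : Type} [TopologicalSpace M] [ChartedSpace (Fin n → ℝ) M]
  [MeasurableSpace M] [BorelSpace M] [IsManifold 𝓘(ℝ, Fin n → ℝ) ∞ M] [T2Space M] [CompactSpace M]
  {J : Matrix (Fin n) (Fin n) ℝ} {p : M' → M}

/-- curvature inequality for holomorphic maps, without the number of preimages -/
theorem holo_free (hn : 3 ≤ n) (hJ : J * J = -1) (hM' : HoloAtlas J M')
    (hp : HoloMap J p) {lam : ℝ} (hlam : 0 ≤ lam) {V : ENNReal} (h : RMetric (Fin n) M)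
    {g : RMetric (Fin n) M'} (hg : g.IsHermitian J) {μ : Measure M'} (hμ : IsVol g μ)
    (hV : ∀ eta : ℝ, 0 < eta → ∃ (g0 : RMetric (Fin n) M) (μ0 : Measure M),
      g0.IsHermitian J ∧ g0.IsKahler J ∧ RicciLe g0 h lam eta ∧ IsVol g0 μ0 ∧
      V ≤ ∫⁻ q, ENNReal.ofReal (relJac g g0 p q) ∂μ) :
    ENNReal.ofReal (((n : ℝ) * lam) ^ ((n : ℝ) / 2)) * V
      ≤ ∫⁻ q, ENNReal.ofReal ((max 0 (-g.scalar q)) ^ ((n : ℝ) / 2)) ∂μ := by
  haveI : IsFiniteMeasure μ := hμ.isFiniteMeasure
  obtain ⟨C, hC0, hC⟩ := exists_comparison hp g h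
  refine le_of_forall_eta g μ fun eta heta => ?_
  obtain ⟨g0, μ0, hg0, hk, hric, hμ0, hVle⟩ := hV (eta / (C + 1)) (by (clear * - heta hC0; positivity))
  have hRB : RicBound g g0 p lam eta := by
    intro e he e' he' x hx hx' v w hw
    have h1 := hric e' he' (cmap p e e' x) (e'.map_source hx') w
    have hq := hC e he e' he' (e.symm x) (e.map_target hx) hx' v
    rw [e.right_inv hx] at hq
    rw [← hw] at hq
    have h2 : ∑ a, ∑ b, w a * w b * h.mat e' (cmap p e e' x) a b
        ≤ C * ∑ a, ∑ b, v a * v b * g.mat e x a b := hq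
    have h3 : 0 ≤ ∑ a, ∑ b, w a * w b * h.mat e' (cmap p e e' x) a b := by
      have h4 := ((h.isMetric e' he').posDef _ (e'.map_source hx')).posSemidef
      have h5 := h4.dotProduct_mulVec_nonneg w
      have h6 : (∑ a, ∑ b, w a * w b * h.mat e' (cmap p e e' x) a b)
          = star w ⬝ᵥ (h.mat e' (e' (p (e.symm x)))) *ᵥ w := by
        unfold dotProduct
        refine Finset.sum_congr rfl fun a _ => ?_
        have hm : ((h.mat e' (e' (p (e.symm x)))) *ᵥ w) a
            = ∑ b, (h.mat e' (e' (p (e.symm x)))) a b * w b := rfl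
        rw [hm, Finset.mul_sum]
        refine Finset.sum_congr rfl fun b _ => ?_
        simp only [Pi.star_apply, star_trivial]
        show w a * w b * h.mat e' (e' (p (e.symm x))) a b = _
        ring
      rw [h6]
      exact h5
    have hg0' : 0 ≤ ∑ a, ∑ b, v a * v b * g.mat e x a b := by
      by_contra hneg
      push Not at hneg
      have h4 := ((g.isMetric e he).posDef _ hx).posSemidef
      have h5 := h4.dotProduct_mulVec_nonneg v
      have h6 : (∑ a, ∑ b, v a * v b * g.mat e x a b) = star v ⬝ᵥ (g.mat e x) *ᵥ v := by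
        unfold dotProduct
        refine Finset.sum_congr rfl fun a _ => ?_
        have hm : ((g.mat e x) *ᵥ v) a = ∑ b, (g.mat e x) a b * v b := rfl
        rw [hm, Finset.mul_sum]
        refine Finset.sum_congr rfl fun b _ => ?_
        simp only [Pi.star_apply, star_trivial]
        ring
      rw [h6] at hneg
      exact absurd h5 (not_le.mpr hneg)
    have h7 : eta / (C + 1) * (∑ a, ∑ b, w a * w b * h.mat e' (cmap p e e' x) a b)
        ≤ eta * ∑ a, ∑ b, v a * v b * g.mat e x a b := by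
      have hC1 : 0 < C + 1 := by (clear * - hC0; positivity)
      calc eta / (C + 1) * (∑ a, ∑ b, w a * w b * h.mat e' (cmap p e e' x) a b)
          ≤ eta / (C + 1) * (C * ∑ a, ∑ b, v a * v b * g.mat e x a b) :=
            mul_le_mul_of_nonneg_left h2 (by (clear * - heta hC0; positivity))
        _ = eta * (C / (C + 1)) * ∑ a, ∑ b, v a * v b * g.mat e x a b := by ring
        _ ≤ eta * 1 * ∑ a, ∑ b, v a * v b * g.mat e x a b := by
            refine mul_le_mul_of_nonneg_right ?_ hg0'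
            refine mul_le_mul_of_nonneg_left ?_ heta.le
            rw [div_le_one hC1]
            linarith only []
        _ = _ := by ring
    linarith
  have hmain := main_ineq (μ := μ) hμ hJ hM' hp hg hg0 hk (by simpa only [Fintype.card_fin] using hn) hlam heta.le hRB
  simp only [Fintype.card_fin] at hmain
  refine le_trans ?_ hmain
  exact mul_le_mul_right hVle _

end


section

variable {n : ℕ} {A : Matrix (Fin n) (Fin n) ℝ} {X Y : Type}
  [TopologicalSpace X] [T2Space X] [CompactSpace X] [MeasurableSpace X] [BorelSpace X]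
  [TopologicalSpace Y] [T2Space Y] [CompactSpace Y] [MeasurableSpace Y] [BorelSpace Y]
  {c : X → K.Ch n X} {c' : Y → K.Ch n Y} {f : Y → X}
  {g : Y → (Fin n → ℝ) → Matrix (Fin n) (Fin n) ℝ}
  {g0 : X → (Fin n → ℝ) → Matrix (Fin n) (Fin n) ℝ}

/-- a holomorphic map, in the charts -/
theorem hol_loc (hf : Hol A c' c f) (a : Y) (b : X) (x : Fin n → ℝ) (hx : x ∈ (c' a).target)
    (hfx : f ((c' a).symm x) ∈ (c b).source) :
    (∀ i, DifferentiableAt ℝ (fun z => cmap f (c' a) (c b) z i) x) ∧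
      ContDiffAt ℝ ∞ (cmap f (c' a) (c b)) x ∧
      jac (cmap f (c' a) (c b)) x * A = A * jac (cmap f (c' a) (c b)) x := by
  obtain ⟨h1, h2⟩ := hf.2 a b _ x _ (Kat_symm hx) (Kat_coe hfx)
  have h3 : ContDiffAt ℝ ∞ (cmap f (c' a) (c b)) x := contDiffAt_pi.2 h1
  have h4 : ∀ i, DifferentiableAt ℝ (fun z => cmap f (c' a) (c b) z i) x := fun i =>
    ContDiffAt.differentiableAt (h1 i) (by simp)
  have h5 : K.jac (fun z => c b (f ((c' a).symm z))) x = jac (cmap f (c' a) (c b)) x :=
    Kjac_eq h4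
  rw [h5] at h2
  exact ⟨h4, h3, h2⟩

/-- holomorphic maps in the notation of `main_ineq` -/
theorem holoMap_of_hol (hc : K.Atl A c) (hc' : K.Atl A c') (hf : Hol A c' c f) :
    letI := toCS hc; letI := toCS hc'
    HoloMap A f := by
  let i1 := toCS hc
  let i2 := toCS hc'
  refine ⟨hf.1, ?_, ?_⟩
  · rintro _ ⟨a, rfl⟩ _ ⟨b, rfl⟩ x hx hfx
    exact (hol_loc hf a b x hx hfx).2.1
  · rintro _ ⟨a, rfl⟩ _ ⟨b, rfl⟩ x hx hfx
    exact (hol_loc hf a b x hx hfx).2.2

/-- the relative Jacobian determinant -/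
theorem relJ_toRM (hA : A * A = -1) (hc : K.Atl A c) (hc' : K.Atl A c') (hg : K.Herm A c' g)
    (hg0 : K.Herm A c g0) (hf : Hol A c' c f) :
    letI := toCS hc; letI := toCS hc'
    H84.RelJ c c' f g g0 (relJac (toRM hc' hg) (toRM hc hg0) f) := by
  let i1 := toCS hc
  let i2 := toCS hc'
  have := isManifold_of_atl hc
  have := isManifold_of_atl hc'
  have hHM : HoloMap A f := holoMap_of_hol hc hc' hf
  refine ⟨relJac_continuous hA hHM _ _, relJac_nonneg hHM _ _, fun a b x hx hfx => ?_⟩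
  have he : c' a ∈ atlas (Fin n → ℝ) Y := ⟨a, rfl⟩
  have he' : c b ∈ atlas (Fin n → ℝ) X := ⟨b, rfl⟩
  have hp : (c' a).symm x ∈ (c' a).source := (c' a).map_target hx
  have hd0 : 0 < dens ((toRM hc' hg).mat (c' a)) x := ((toRM hc' hg).isMetric _ he).dens_pos hx
  rw [relJac_eq hHM _ _ he hp, (c' a).right_inv hx]
  have h1 : √(g a x).det = dens ((toRM hc' hg).mat (c' a)) x := by
    show √(g a x).det = √(toMat c' g (c' a) x).det
    rw [toMat_eq hg a hx]
  have h2 : √(g0 b (c b (f ((c' a).symm x)))).det =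
      dens ((toRM hc hg0).mat (c b)) (cmap f (c' a) (c b) x) := by
    show √(g0 b (c b (f ((c' a).symm x)))).det =
      √(toMat c g0 (c b) (c b (f ((c' a).symm x)))).det
    rw [toMat_eq hg0 b ((c b).map_source hfx)]
  have h3 : (fderiv ℝ (fun z => c b (f ((c' a).symm z))) x).det =
      (jac (cmap f (c' a) (c b)) x).det := fderiv_det (hol_loc hf a b x hx hfx).2.1
  rw [h1, h2, h3, div_mul_cancel₀ _ hd0.ne', pden_eq hHM _ he he' hx hfx]

end

/-- ROW D5a -/
theorem specRelJ : H84.SpecRelJ := by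
  intro n A X Y _ _ _ _ _ _ _ _ _ _ c c' f g g0 hA hc hc' hg hg0 hf
  exact ⟨_, relJ_toRM hA hc hc' hg hg0 hf⟩

/-- ROW D5 -/
theorem specHoloFree : H84.SpecHoloFree := by
  intro n hn A hJ X Y _ _ _ _ _ _ _ _ _ _ c c' h g μ f V hc hc' hh hg hμ hf hV
  let i1 := toCS hc
  let i2 := toCS hc'
  have := isManifold_of_atl hc
  have := isManifold_of_atl hc'
  have hn0 : (0 : ℝ) < n := by
    have : (3 : ℝ) ≤ n := by exact_mod_cast hn
    linarith only [this]
  set κ : ENNReal := ENNReal.ofReal (((n : ℝ) * 1) ^ ((n : ℝ) / 2)) with hκ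
  have hκ0 : κ ≠ 0 := by
    rw [hκ]
    exact (ENNReal.ofReal_pos.mpr (by positivity)).ne'
  have hκt : κ ≠ ⊤ := ENNReal.ofReal_ne_top
  have hmain := holo_free hn hJ (holoAtlas_of_atl hc') (lam := 1) (V := V)
    (holoMap_of_hol hc hc' hf) zero_le_one (toRM hc hh) (toRM_herm hc' hg)
    (toRM_vol hc' hg hμ) (fun eta heta => by
      obtain ⟨g0, μ0, h1, h2, h3, h4, h5⟩ := hV eta heta
      exact ⟨toRM hc h1, μ0, toRM_herm hc h1, toRM_kahler hc h1 h2, toRM_ricLe hc h1 hh h3,
        toRM_vol hc h1 h4, h5 _ (relJ_toRM hJ hc hc' hg h1 hf)⟩)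
  rw [integral_eq hc' hn hg μ, ← hκ] at hmain
  exact (ENNReal.mul_le_mul_iff_right hκ0 hκt).mp hmain

end Vale.Agent.P223.R2.H187
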