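import Vale.Agent.P223.R2.H84.SpecDeg
import Mathlib.Analysis.Distribution.AEEqOfIntegralContDiff
import Mathlib.MeasureTheory.Measure.Haar.Unique
import Mathlib.MeasureTheory.Measure.Decomposition.RadonNikodym
import Mathlib.MeasureTheory.Measure.Lebesgue.EqHaar

/-! P223, modifications, row D2: a measure on `ℝ^n` which annihilates all partial derivatives of
test functions is a multiple of Lebesgue measure. -/

open scoped ContDiff Topology ENNReal
open MeasureTheory

namespace Vale.Agent.P223.R2.H187

/-- two measures with the same integrals of test functions are equal -/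
theorem ext_smooth {n : ℕ} (m m' : Measure (Fin n → ℝ)) [IsFiniteMeasureOnCompacts m]
    [IsFiniteMeasureOnCompacts m'] (h : ∀ η : (Fin n → ℝ) → ℝ, ContDiff ℝ ∞ η →
      HasCompactSupport η → ∫ x, η x ∂m = ∫ x, η x ∂m') : m = m' := by
  have hc : IsFiniteMeasureOnCompacts (m + m') :=
    ⟨fun K hK => by
      rw [Measure.add_apply]
      exact ENNReal.add_lt_top.2 ⟨hK.measure_lt_top, hK.measure_lt_top⟩⟩
  set ν := m + m' with hν
  have h1 : m ≤ ν := Measure.le_add_right le_rfl
  have h2 : m' ≤ ν := Measure.le_add_left le_rfl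
  have key : ∀ l : Measure (Fin n → ℝ), l ≤ ν →
      LocallyIntegrable (fun x => (l.rnDeriv ν x).toReal) ν := by
    intro l hl
    refine (locallyIntegrable_const (1 : ℝ)).mono
      (Measure.measurable_rnDeriv _ _).ennreal_toReal.aestronglyMeasurable ?_
    filter_upwards [Measure.rnDeriv_le_one_of_le hl] with x hx
    rw [Real.norm_of_nonneg ENNReal.toReal_nonneg, norm_one]
    exact ENNReal.toReal_le_of_le_ofReal zero_le_one (by simpa using hx)
  have h3 : ∀ᵐ x ∂ν, (m.rnDeriv ν x).toReal = (m'.rnDeriv ν x).toReal := by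
    refine ae_eq_of_integral_contDiff_smul_eq (key m h1) (key m' h2) fun η hη hs => ?_
    have e1 : ∫ x, η x • (m.rnDeriv ν x).toReal ∂ν = ∫ x, η x ∂m := by
      rw [← integral_rnDeriv_smul h1.absolutelyContinuous]
      exact integral_congr_ae (Filter.Eventually.of_forall fun x => mul_comm _ _)
    have e2 : ∫ x, η x • (m'.rnDeriv ν x).toReal ∂ν = ∫ x, η x ∂m' := by
      rw [← integral_rnDeriv_smul h2.absolutelyContinuous]
      exact integral_congr_ae (Filter.Eventually.of_forall fun x => mul_comm _ _)
    rw [e1, e2, h η hη hs]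
  have h4 : m.rnDeriv ν =ᵐ[ν] m'.rnDeriv ν := by
    filter_upwards [h3, Measure.rnDeriv_lt_top m ν, Measure.rnDeriv_lt_top m' ν] with x hx a b
    exact (ENNReal.toReal_eq_toReal_iff' a.ne b.ne).1 hx
  rw [← Measure.withDensity_rnDeriv_eq m ν h1.absolutelyContinuous,
    ← Measure.withDensity_rnDeriv_eq m' ν h2.absolutelyContinuous, withDensity_congr_ae h4]

/-- the integral of a test function is invariant by translations -/
theorem integral_translate {n : ℕ} (m : Measure (Fin n → ℝ)) [IsFiniteMeasureOnCompacts m]
    (hm : ∀ (k : Fin n) (η : (Fin n → ℝ) → ℝ), ContDiff ℝ ∞ η → HasCompactSupport η →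
      ∫ x, H.pd k η x ∂m = 0) (v : Fin n → ℝ) (η : (Fin n → ℝ) → ℝ) (hη : ContDiff ℝ ∞ η)
    (hs : HasCompactSupport η) : ∫ x, η (v + x) ∂m = ∫ x, η x ∂m := by
  -- translates
  have hT : ∀ t : ℝ, ContDiff ℝ ∞ fun x => η (t • v + x) := fun t =>
    hη.comp (contDiff_const.add contDiff_id)
  have hTs : ∀ t : ℝ, HasCompactSupport fun x => η (t • v + x) := fun t =>
    hs.comp_homeomorph (Homeomorph.addLeft (t • v))
  have hd : ∀ (t : ℝ) x, HasDerivAt (fun t : ℝ => η (t • v + x)) (fderiv ℝ η (t • v + x) v) t := by
    intro t x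
    have h1 : HasDerivAt (fun t : ℝ => t • v + x) v t := by
      simpa using ((hasDerivAt_id t).smul_const v).add_const x
    exact ((hη.differentiable (by simp)) _).hasFDerivAt.comp_hasDerivAt t h1
  have hfd : Continuous (fderiv ℝ η) := hη.continuous_fderiv (by simp)
  have hfs : HasCompactSupport (fderiv ℝ η) := hs.fderiv ℝ
  obtain ⟨C, hC⟩ := hfs.exists_bound_of_continuous hfd
  have hC0 : 0 ≤ C := (norm_nonneg _).trans (hC 0)
  have hder : ∀ t0 : ℝ, HasDerivAt (fun t : ℝ => ∫ x, η (t • v + x) ∂m)
      (∫ x, fderiv ℝ η (t0 • v + x) v ∂m) t0 := by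
    intro t0
    set K : Set (Fin n → ℝ) := (fun p : ℝ × (Fin n → ℝ) => p.2 - p.1 • v) ''
      (Metric.closedBall t0 1 ×ˢ tsupport η) with hK
    have hKc : IsCompact K :=
      ((isCompact_closedBall t0 1).prod hs).image (by fun_prop)
    refine (hasDerivAt_integral_of_dominated_loc_of_deriv_le
      (F := fun t x => η (t • v + x)) (F' := fun t x => fderiv ℝ η (t • v + x) v)
      (bound := K.indicator fun _ => C * ‖v‖) (Metric.ball_mem_nhds t0 one_pos)
      (Filter.Eventually.of_forall fun t => (hT t).continuous.aestronglyMeasurable)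
      ((hT t0).continuous.integrable_of_hasCompactSupport (hTs t0)) ?_
      (Filter.Eventually.of_forall fun x t ht => ?_) ?_
      (Filter.Eventually.of_forall fun x t _ => hd t x)).2
    · exact ((hfd.comp (continuous_const.add continuous_id)).clm_apply
        continuous_const).aestronglyMeasurable
    · by_cases hx : x ∈ K
      · rw [Set.indicator_of_mem hx]
        exact (ContinuousLinearMap.le_opNorm _ _).trans
          (mul_le_mul_of_nonneg_right (hC _) (norm_nonneg _))
      · rw [Set.indicator_of_notMem hx]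
        have h1 : t • v + x ∉ tsupport η := fun h => hx
          ⟨(t, t • v + x), ⟨Metric.ball_subset_closedBall ht, h⟩, by
            show t • v + x - t • v = x
            abel⟩
        have h2 : fderiv ℝ η (t • v + x) = 0 := by
          by_contra h
          exact h1 (support_fderiv_subset ℝ (f := η) h)
        rw [h2, zero_apply, norm_zero]
    · exact (integrableOn_const hKc.measure_lt_top.ne).integrable_indicator hKc.measurableSet
  have hzero : ∀ t0 : ℝ, ∫ x, fderiv ℝ η (t0 • v + x) v ∂m = 0 := by
    intro t0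
    have h1 : ∀ x, fderiv ℝ η (t0 • v + x) v =
        ∑ k, v k * H.pd k (fun x => η (t0 • v + x)) x := by
      intro x
      have h2 : v = ∑ k, v k • (Pi.single k 1 : Fin n → ℝ) := (pi_eq_sum_univ' v)
      have h3 : ∀ k, H.pd k (fun x => η (t0 • v + x)) x =
          fderiv ℝ η (t0 • v + x) (Pi.single k 1) := by
        intro k
        unfold H.pd
        rw [fderiv_comp_add_left]
      simp only [h3]
      have h4 : ∀ L : (Fin n → ℝ) →L[ℝ] ℝ, L v = ∑ k, v k * L (Pi.single k 1) := by
        intro L
        conv_lhs => rw [h2]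
        rw [map_sum]
        simp only [map_smul, smul_eq_mul]
      exact h4 _
    simp only [h1]
    rw [integral_finsetSum]
    · refine Finset.sum_eq_zero fun k _ => ?_
      rw [integral_const_mul, hm k _ (hT t0) (hTs t0), mul_zero]
    · intro k _
      refine Integrable.const_mul ?_ _
      refine Continuous.integrable_of_hasCompactSupport ?_ ?_
      · exact ((hT t0).continuous_fderiv (by simp)).clm_apply continuous_const
      · exact ((hTs t0).fderiv ℝ).comp_left (g := fun L : (Fin n → ℝ) →L[ℝ] ℝ =>
          L (Pi.single k 1)) rfl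
  have hconst := is_const_of_deriv_eq_zero (fun t => (hder t).differentiableAt)
    (fun t => by rw [(hder t).deriv, hzero]) 1 0
  simpa using hconst

/-- ROW D2 -/
theorem specTr : H84.SpecTr := by
  intro n m hm h
  have : m.IsAddLeftInvariant := by
    refine ⟨fun v => ?_⟩
    have : IsFiniteMeasureOnCompacts (Measure.map (fun x => v + x) m) :=
      Measure.IsFiniteMeasureOnCompacts.map m (Homeomorph.addLeft v)
    refine ext_smooth _ _ fun η hη hs => ?_
    rw [integral_map (by fun_prop) hη.continuous.aestronglyMeasurable]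
    exact integral_translate m h v η hη hs
  exact ⟨_, Measure.isAddLeftInvariant_eq_smul m volume⟩

end Vale.Agent.P223.R2.H187
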